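import Vale.Agent.P369.Final

open Vale.Agent.P369

theorem Vale.Agent.Results.P369.A_full.result (n : ℕ) (hn : 1 ≤ n) (η : ℝ) (h0 : 0 ≤ η)
    (h1 : η ≤ 1) (H H₂ : Type) [NormedAddCommGroup H] [InnerProductSpace ℂ H] [CompleteSpace H]
    [NormedAddCommGroup H₂] [InnerProductSpace ℂ H₂] [CompleteSpace H₂]
    (e : HilbertBasis (Occ n) ℂ H) (e₂ : HilbertBasis (Occ n × Occ n) ℂ H₂)
    (A B C : H →L[ℂ] H) (W U : H₂ →L[ℂ] H₂)
    (hA : IsDensity e A) (hB : IsDensity e B) (eA : FiniteEnergy e A) (eB : FiniteEnergy e B)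
    (hW : IsTensor e e₂ A B W) (hU : IsBeamSplitter e₂ η U)
    (hT : IsTraceOverB e e₂ (conjBy U W) C)
    (NA NB NC : ℝ) (hNA : 0 ≤ NA) (hNB : 0 ≤ NB) (hNC : 0 ≤ NC)
    (gA : g NA = entropy e A / n) (gB : g NB = entropy e B / n) (gC : g NC = entropy e C / n) :
    η * NA + (1 - η) * NB ≤ NC :=
  epni n hn η h0 h1 H H₂ e e₂ A B C W U hA hB eA eB hW hU hT NA NB NC hNA hNB hNC gA gB gC
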